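import Vale.Agent.P091.H413.Tree

/-!
# Lemma E, rows (E-a) and (E-b): energies from entropies (helper219)

* `x_energy` : the x-energy `∑ dα²/α` from the potential `α log (α / r)`;
* `y_energy` : the value energy `∑ dG²/G` from the potential `G log G`;
with activations of whole classes and with removals of mass.
-/

open Finset

namespace Vale.Agent.P091.LE.H219

open Vale.Agent.P091.H413

/-! ## Scalar inequalities -/

/-- `(1+t) log (1+t) + (1-t) log (1-t) ≥ t²` on `[0,1]`. -/
theorem sq_le_two_log {t : ℝ} (h0 : 0 ≤ t) (h1 : t ≤ 1) :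
    t ^ 2 ≤ (1 + t) * Real.log (1 + t) + (1 - t) * Real.log (1 - t) := by
  set f : ℝ → ℝ := fun t => (1 + t) * Real.log (1 + t) + (1 - t) * Real.log (1 - t) - t ^ 2
    with hf
  have hcont : ContinuousOn f (Set.Icc 0 1) := by
    apply Continuous.continuousOn
    have c1 : Continuous fun t : ℝ => (1 + t) * Real.log (1 + t) :=
      Real.continuous_mul_log.comp (continuous_const.add continuous_id)
    have c2 : Continuous fun t : ℝ => (1 - t) * Real.log (1 - t) :=
      Real.continuous_mul_log.comp (continuous_const.sub continuous_id)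
    exact (c1.add c2).sub (continuous_pow 2)
  have hder : ∀ x ∈ interior (Set.Icc (0:ℝ) 1),
      HasDerivWithinAt f (Real.log (1 + x) - Real.log (1 - x) - 2 * x)
        (interior (Set.Icc (0:ℝ) 1)) x := by
    intro x hx
    rw [interior_Icc] at hx
    have p1 : (1 + x) ≠ 0 := by have := hx.1; positivity
    have p2 : (1 - x) ≠ 0 := by have := hx.2; linarith
    have d1 : HasDerivAt (fun t : ℝ => (1 + t) * Real.log (1 + t)) ((Real.log (1 + x) + 1) * 1) x :=
      (Real.hasDerivAt_mul_log p1).comp x ((hasDerivAt_id x).const_add 1)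
    have d2 : HasDerivAt (fun t : ℝ => (1 - t) * Real.log (1 - t))
        ((Real.log (1 - x) + 1) * (-1)) x :=
      (Real.hasDerivAt_mul_log p2).comp x ((hasDerivAt_id x).const_sub 1)
    have d3 : HasDerivAt (fun t : ℝ => t ^ 2) (2 * x) x := by
      simpa using hasDerivAt_pow 2 x
    have := ((d1.add d2).sub d3)
    have e : ((Real.log (1 + x) + 1) * 1 + (Real.log (1 - x) + 1) * (-1) - 2 * x)
        = Real.log (1 + x) - Real.log (1 - x) - 2 * x := by ring
    rw [e] at this
    exact this.hasDerivWithinAt
  have hnn : ∀ x ∈ interior (Set.Icc (0:ℝ) 1), 0 ≤ Real.log (1 + x) - Real.log (1 - x) - 2 * x := by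
    intro x hx
    rw [interior_Icc] at hx
    have hs := Real.hasSum_log_sub_log_of_abs_lt_one (x := x) (by
      rw [abs_lt]; constructor <;> linarith [hx.1, hx.2])
    have h0 := sum_le_hasSum {0} (fun i _ => by
      have := hx.1.le; positivity) hs
    simp at h0
    linarith
  have hmono := monotoneOn_of_hasDerivWithinAt_nonneg (convex_Icc 0 1) hcont hder hnn
  have := hmono (Set.left_mem_Icc.mpr zero_le_one) (⟨h0, h1⟩ : t ∈ Set.Icc (0:ℝ) 1) h0
  simp [hf] at this
  linarith

theorem sq_le_two_log' {t : ℝ} (h0 : -1 ≤ t) (h1 : t ≤ 1) :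
    t ^ 2 ≤ (1 + t) * Real.log (1 + t) + (1 - t) * Real.log (1 - t) := by
  rcases le_total 0 t with h | h
  · exact sq_le_two_log h h1
  · have := sq_le_two_log (t := -t) (by linarith) (by linarith)
    have e : (1 + -t) * Real.log (1 + -t) + (1 - -t) * Real.log (1 - -t)
        = (1 + t) * Real.log (1 + t) + (1 - t) * Real.log (1 - t) := by
      rw [show (1 + -t) = 1 - t by ring, show (1 - -t) = 1 + t by ring]; ring
    rw [e] at this
    simpa using this

/-- one step: `da²/a ≤ 2 (mean of b log b - a log a)`, `a = (b + c)/2`. -/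
theorem step_log {a b c : ℝ} (hb : 0 ≤ b) (hc : 0 ≤ c) (ha : a = (b + c) / 2) :
    ((b - c) / 2) ^ 2 / a ≤
      2 * ((b * Real.log b + c * Real.log c) / 2 - a * Real.log a) := by
  rcases eq_or_lt_of_le (show 0 ≤ a by rw [ha]; linarith) with h0 | h0
  · have hb0 : b = 0 := by linarith
    have hc0 : c = 0 := by linarith
    simp [hb0, hc0, ← h0]
  · set t : ℝ := (b - c) / (2 * a) with ht
    have hbt : b = a * (1 + t) := by rw [ht]; field_simp; linarith
    have hct : c = a * (1 - t) := by rw [ht]; field_simp; linarith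
    have t1 : 0 ≤ 1 + t := by
      by_contra hh; push Not at hh; have := mul_neg_of_pos_of_neg h0 hh; linarith
    have t2 : 0 ≤ 1 - t := by
      by_contra hh; push Not at hh; have := mul_neg_of_pos_of_neg h0 hh; linarith
    have key := sq_le_two_log' (t := t) (by linarith) (by linarith)
    have lb : b * Real.log b = a * (1 + t) * Real.log a + a * ((1 + t) * Real.log (1 + t)) := by
      rcases eq_or_lt_of_le t1 with h | h
      · rw [hbt, ← h]; simp
      · rw [hbt, Real.log_mul h0.ne' h.ne']; ring
    have lc : c * Real.log c = a * (1 - t) * Real.log a + a * ((1 - t) * Real.log (1 - t)) := by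
      rcases eq_or_lt_of_le t2 with h | h
      · rw [hct, ← h]; simp
      · rw [hct, Real.log_mul h0.ne' h.ne']; ring
    have e1 : ((b - c) / 2) ^ 2 / a = a * t ^ 2 := by
      rw [ht]; field_simp
    rw [e1, lb, lc]
    have := mul_le_mul_of_nonneg_left key h0.le
    linarith

/-- one step, with a reference: `da²/a ≤ 2 (mean of b log (b/r) - a log (a/r))`. -/
theorem step_log_ref {a b c r : ℝ} (hb : 0 ≤ b) (hc : 0 ≤ c) (ha : a = (b + c) / 2)
    (hr : 0 < r) :
    ((b - c) / 2) ^ 2 / a ≤
      2 * ((b * Real.log (b / r) + c * Real.log (c / r)) / 2 - a * Real.log (a / r)) := by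
  have h1 := step_log hb hc ha
  have key : ∀ x : ℝ, x * Real.log (x / r) = x * Real.log x - x * Real.log r := by
    intro x
    rcases eq_or_ne x 0 with h | h
    · simp [h]
    · rw [Real.log_div h hr.ne']; ring
  rw [key, key, key]
  have e : (b * Real.log b - b * Real.log r + (c * Real.log c - c * Real.log r)) / 2
      - (a * Real.log a - a * Real.log r)
      = (b * Real.log b + c * Real.log c) / 2 - a * Real.log a := by
    rw [ha]; ring
  rw [e]; exact h1

/-- removal of mass: `a' log (a'/r) - a log (a/r) ≤ (a' - a) (h + 1)` if `a ≤ a' ≤ e^h r`. -/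
theorem removal_ref {a a' r h : ℝ} (ha : 0 ≤ a) (hle : a ≤ a') (hr : 0 < r)
    (hub : a' ≤ Real.exp h * r) :
    a' * Real.log (a' / r) - a * Real.log (a / r) ≤ (h + 1) * (a' - a) := by
  have ha' : 0 ≤ a' := ha.trans hle
  rcases eq_or_lt_of_le ha' with h0 | h0
  · have : a = 0 := by linarith
    simp [← h0, this]
  · have hlog : Real.log (a' / r) ≤ h := by
      rw [Real.log_le_iff_le_exp (by positivity)]
      rw [div_le_iff₀ hr]; exact hub
    rcases eq_or_lt_of_le ha with h1 | h1
    · rw [← h1]; simp only [zero_mul, sub_zero]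
      have := mul_le_mul_of_nonneg_left hlog h0.le
      nlinarith
    · have e : Real.log (a / r) = Real.log (a' / r) - Real.log (a' / a) := by
        rw [Real.log_div h1.ne' hr.ne', Real.log_div h0.ne' hr.ne', Real.log_div h0.ne' h1.ne']
        ring
      have l2 : Real.log (a' / a) ≤ a' / a - 1 := Real.log_le_sub_one_of_pos (by positivity)
      have l3 : a * Real.log (a' / a) ≤ a' - a := by
        have := mul_le_mul_of_nonneg_left l2 h1.le
        have e2 : a * (a' / a - 1) = a' - a := by field_simp
        linarith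
      rw [e]
      have := mul_le_mul_of_nonneg_left hlog (show 0 ≤ a' - a by linarith)
      nlinarith

theorem mul_log_ref_le {a' r h : ℝ} (ha : 0 ≤ a') (hr : 0 < r) (hub : a' ≤ Real.exp h * r) :
    a' * Real.log (a' / r) ≤ h * a' := by
  rcases eq_or_lt_of_le ha with h0 | h0
  · simp [← h0]
  · have hlog : Real.log (a' / r) ≤ h := by
      rw [Real.log_le_iff_le_exp (by positivity)]
      rw [div_le_iff₀ hr]; exact hub
    have := mul_le_mul_of_nonneg_left hlog h0.le
    linarith

/-! ## Telescoping with modifications -/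

/-- exact telescoping with modifications (arrival values `Φ'`, departure values `Φ`) -/
theorem S_tele3 (n : ℕ) {f Φ Φ' : Node → ℝ} (v : Node)
    (h : ∀ w : Node, w.length < n + v.length →
      f w ≤ (Φ' (true :: w) + Φ' (false :: w)) / 2 - Φ w) :
    S n f v ≤ Lf n Φ' v - Φ' v + S n (fun w => Φ' w - Φ w) v := by
  induction n generalizing v with
  | zero => simp [S, Lf]
  | succ n ih =>
    simp only [S, Lf]
    have h1 := ih (true :: v) (fun w hw => h w (by simp only [List.length_cons] at hw; omega))
    have h2 := ih (false :: v) (fun w hw => h w (by simp only [List.length_cons] at hw; omega))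
    have h3 := h v (by omega)
    linarith

/-- the same with equality -/
theorem S_tele3_eq (n : ℕ) {f Φ Φ' : Node → ℝ} (v : Node)
    (h : ∀ w : Node, w.length < n + v.length →
      f w = (Φ' (true :: w) + Φ' (false :: w)) / 2 - Φ w) :
    S n f v = Lf n Φ' v - Φ' v + S n (fun w => Φ' w - Φ w) v := by
  induction n generalizing v with
  | zero => simp [S, Lf]
  | succ n ih =>
    simp only [S, Lf]
    have h1 := ih (true :: v) (fun w hw => h w (by simp only [List.length_cons] at hw; omega))
    have h2 := ih (false :: v) (fun w hw => h w (by simp only [List.length_cons] at hw; omega))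
    have h3 := h v (by omega)
    rw [h1, h2, h3]; ring

/-- `Lf` only sees the nodes of the last level -/
theorem Lf_le_level (n : ℕ) {f : Node → ℝ} {c : ℝ} (v : Node)
    (h : ∀ w : Node, w.length = n + v.length → (∃ u, w = u ++ v) → f w ≤ c) : Lf n f v ≤ c := by
  induction n generalizing v with
  | zero => exact h v (by omega) ⟨[], rfl⟩
  | succ n ih =>
    simp only [Lf]
    have h1 := ih (true :: v) (fun w hw hu => h w (by simp only [List.length_cons] at hw; omega) (by
      obtain ⟨u, rfl⟩ := hu; exact ⟨u ++ [true], by simp⟩))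
    have h2 := ih (false :: v) (fun w hw hu => h w (by simp only [List.length_cons] at hw; omega)
      (by obtain ⟨u, rfl⟩ := hu; exact ⟨u ++ [false], by simp⟩))
    linarith

/-! ## (E-a): the x-energy -/

/-- arrival potential of the x-classes, reference of the parent -/
noncomputable def pa {K : Type*} [Fintype K] (α' r : K → Node → ℝ) : Node → ℝ
  | [] => 0
  | c :: v => ∑ k, α' k (c :: v) * Real.log (α' k (c :: v) / r k v)

/-- **(E-a)**, general form.  `α` departure values, `α'` arrival values, `r k v > 0` a reference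
which is constant along the path while the class lives; `h` bounds `log (α'/r)`; `m` the removed
mass; `J` the activation cost `∑ α log (r/α)`. -/
theorem x_energy {K : Type*} [Fintype K] (n : ℕ) (α α' r : K → Node → ℝ) (h m J : ℝ)
    (hh : 0 ≤ h)
    (α0 : ∀ k v, v.length < n → 0 ≤ α k v) (α0' : ∀ k v, v.length ≤ n → 0 ≤ α' k v)
    (αsum' : ∀ v, v.length ≤ n → ∑ k, α' k v ≤ 1)
    (αm : ∀ k v, v.length < n → α k v = (α' k (true :: v) + α' k (false :: v)) / 2)
    (r0 : ∀ k v, v.length < n → 0 < r k v)
    (hr : ∀ k (c : Bool) v, v.length < n → α' k (c :: v) ≤ Real.exp h * r k v)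
    (hmod : ∀ k (c : Bool) v, (c :: v).length < n → α' k (c :: v) = 0 ∨
      (α k (c :: v) ≤ α' k (c :: v) ∧ r k (c :: v) = r k v))
    (hm : S n (fun v => ∑ k, max (α' k v - α k v) 0) [] ≤ m)
    (hJ : S n (fun v => ∑ k, if v = [] ∨ α' k v = 0 then
      α k v * Real.log (r k v / α k v) else 0) [] ≤ J) :
    S n (fun v => ∑ k, ((α' k (true :: v) - α' k (false :: v)) / 2) ^ 2 / α k v) []
      ≤ 2 * (h * (1 + m) + m + J) := by
  set Φ : Node → ℝ := fun v => ∑ k, α k v * Real.log (α k v / r k v) with hΦ
  have h1 : S n (fun v => ∑ k, ((α' k (true :: v) - α' k (false :: v)) / 2) ^ 2 / α k v) []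
      ≤ 2 * (Lf n (pa α' r) [] - pa α' r [] + S n (fun w => pa α' r w - Φ w) []) := by
    have h2 : S n (fun v => (1 / 2) *
        ∑ k, ((α' k (true :: v) - α' k (false :: v)) / 2) ^ 2 / α k v) []
        ≤ Lf n (pa α' r) [] - pa α' r [] + S n (fun w => pa α' r w - Φ w) [] := by
      apply S_tele3
      intro w hw
      simp only [List.length_nil, Nat.add_zero] at hw
      have h3 : ∑ k, ((α' k (true :: w) - α' k (false :: w)) / 2) ^ 2 / α k w ≤
          ∑ k, 2 * ((α' k (true :: w) * Real.log (α' k (true :: w) / r k w) +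
            α' k (false :: w) * Real.log (α' k (false :: w) / r k w)) / 2 -
              α k w * Real.log (α k w / r k w)) := by
        apply Finset.sum_le_sum
        intro k _
        exact step_log_ref (α0' k _ (by simpa using hw)) (α0' k _ (by simpa using hw))
          (αm k w hw) (r0 k w hw)
      have e : ∑ k, 2 * ((α' k (true :: w) * Real.log (α' k (true :: w) / r k w) +
            α' k (false :: w) * Real.log (α' k (false :: w) / r k w)) / 2 -
              α k w * Real.log (α k w / r k w))
          = 2 * ((pa α' r (true :: w) + pa α' r (false :: w)) / 2 - Φ w) := by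
        simp only [pa, hΦ]
        rw [← Finset.mul_sum, Finset.sum_sub_distrib, ← Finset.sum_div, Finset.sum_add_distrib]
      rw [e] at h3
      linarith
    rw [S_smul] at h2
    linarith
  refine h1.trans ?_
  have hsum1 : ∀ v : Node, v.length ≤ n → ∑ k, h * α' k v ≤ h := by
    intro v hv
    rw [← Finset.mul_sum]
    have := mul_le_mul_of_nonneg_left (αsum' v hv) hh
    linarith
  have hLf : Lf n (pa α' r) [] ≤ h := by
    apply Lf_le
    intro w hw
    simp only [List.length_nil, Nat.add_zero] at hw
    cases w with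
    | nil => simpa [pa] using hh
    | cons c v =>
      have hv : v.length < n := by simpa using hw
      refine le_trans ?_ (hsum1 (c :: v) hw)
      simp only [pa]
      apply Finset.sum_le_sum
      intro k _
      exact mul_log_ref_le (α0' k _ hw) (r0 k v hv) (hr k c v hv)
  have hdrop : S n (fun w => pa α' r w - Φ w) [] ≤
      S n (fun v => (∑ k, if v = [] ∨ α' k v = 0 then
        α k v * Real.log (r k v / α k v) else 0) +
        (h + 1) * ∑ k, max (α' k v - α k v) 0) [] := by
    apply S_mono
    intro w hw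
    simp only [List.length_nil, Nat.add_zero] at hw
    have neg : ∀ k, - (α k w * Real.log (α k w / r k w)) = α k w * Real.log (r k w / α k w) := by
      intro k
      rw [show r k w / α k w = (α k w / r k w)⁻¹ by rw [inv_div], Real.log_inv]; ring
    have hmax : ∀ k, 0 ≤ (h + 1) * max (α' k w - α k w) 0 := fun k =>
      mul_nonneg (by linarith) (le_max_right _ _)
    rw [Finset.mul_sum, ← Finset.sum_add_distrib]
    cases w with
    | nil =>
      simp only [pa, hΦ, zero_sub, true_or, if_true, ← Finset.sum_neg_distrib]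
      apply Finset.sum_le_sum
      intro k _
      rw [neg k]
      linarith [hmax k]
    | cons c v =>
      have hv : v.length < n := by
        simp only [List.length_cons] at hw; omega
      simp only [pa, hΦ, ← Finset.sum_sub_distrib]
      apply Finset.sum_le_sum
      intro k _
      rcases hmod k c v hw with h0 | ⟨hle, hrr⟩
      · simp only [h0, zero_mul, zero_sub, or_true, if_true]
        rw [neg k]
        have := hmax k
        rw [h0] at this
        simp only [zero_sub] at this
        linarith
      · have hb : 0 ≤ (if c :: v = [] ∨ α' k (c :: v) = 0 then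
            α k (c :: v) * Real.log (r k (c :: v) / α k (c :: v)) else 0) := by
          by_cases hz : α' k (c :: v) = 0
          · have : α k (c :: v) = 0 := le_antisymm (by linarith) (α0 k _ hw)
            simp [this]
          · rw [if_neg (by simp [hz])]
        have h4 := removal_ref (α0 k _ hw) hle (r0 k v hv) (hr k c v hv)
        rw [← hrr] at h4 ⊢
        have h5 : (h + 1) * (α' k (c :: v) - α k (c :: v)) ≤
            (h + 1) * max (α' k (c :: v) - α k (c :: v)) 0 :=
          mul_le_mul_of_nonneg_left (le_max_left _ _) (by linarith)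
        linarith
  rw [S_add, S_smul] at hdrop
  have hpa : pa α' r [] = 0 := rfl
  rw [hpa]
  have h6 : (h + 1) * S n (fun v => ∑ k, max (α' k v - α k v) 0) [] ≤ (h + 1) * m :=
    mul_le_mul_of_nonneg_left hm (by linarith)
  nlinarith

/-- the mass of the class at its activation node (`1` if the class is not alive) -/
noncomputable def ref (α α' : Node → ℝ) : Node → ℝ
  | [] => if α [] = 0 then 1 else α []
  | c :: v => if α' (c :: v) = 0 then (if α (c :: v) = 0 then 1 else α (c :: v)) else ref α α' v

theorem ref_pos {n : ℕ} {α α' : Node → ℝ} (α0 : ∀ v, v.length < n → 0 ≤ α v) :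
    ∀ v : Node, v.length < n → 0 < ref α α' v := by
  intro v
  induction v with
  | nil =>
    intro hv
    simp only [ref]
    split_ifs with h
    · exact one_pos
    · exact lt_of_le_of_ne (α0 _ hv) (Ne.symm h)
  | cons c v ih =>
    intro hv
    have hv' : v.length < n := by simp only [List.length_cons] at hv; omega
    simp only [ref]
    split_ifs with h1 h2
    · exact one_pos
    · exact lt_of_le_of_ne (α0 _ hv) (Ne.symm h2)
    · exact ih hv'

/-- **(E-a)** with `r` = mass of the class at its activation node: it is enough that the class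
never exceeds `e^h` times its mass at activation (fractional leaves `a_k(x) ≤ e^h α_k(w_k)`). -/
theorem x_energy_ref {K : Type*} [Fintype K] (n : ℕ) (α α' : K → Node → ℝ) (h m : ℝ)
    (hh : 0 ≤ h)
    (α0 : ∀ k v, v.length < n → 0 ≤ α k v) (α0' : ∀ k v, v.length ≤ n → 0 ≤ α' k v)
    (αsum' : ∀ v, v.length ≤ n → ∑ k, α' k v ≤ 1)
    (αm : ∀ k v, v.length < n → α k v = (α' k (true :: v) + α' k (false :: v)) / 2)
    (hr : ∀ k (c : Bool) v, v.length < n → α' k (c :: v) ≤ Real.exp h * ref (α k) (α' k) v)
    (hmod : ∀ k (c : Bool) v, (c :: v).length < n → α' k (c :: v) = 0 ∨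
      α k (c :: v) ≤ α' k (c :: v))
    (hm : S n (fun v => ∑ k, max (α' k v - α k v) 0) [] ≤ m) :
    S n (fun v => ∑ k, ((α' k (true :: v) - α' k (false :: v)) / 2) ^ 2 / α k v) []
      ≤ 2 * (h * (1 + m) + m) := by
  have := x_energy n α α' (fun k => ref (α k) (α' k)) h m 0 hh α0 α0' αsum' αm
    (fun k v hv => ref_pos (n := n) (α0 k) v hv) hr ?_ hm ?_
  · simpa using this
  · intro k c v hv
    by_cases hz : α' k (c :: v) = 0
    · exact Or.inl hz
    · exact Or.inr ⟨(hmod k c v hv).resolve_left hz, by simp [ref, hz]⟩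
  · have hz : S n (fun v => ∑ k, if v = [] ∨ α' k v = 0 then
        α k v * Real.log (ref (α k) (α' k) v / α k v) else 0) [] ≤
        S n (fun _ => 0) [] := by
      apply S_mono
      intro w hw
      apply le_of_eq
      apply Finset.sum_eq_zero
      intro k _
      split_ifs with hc
      · by_cases ha : α k w = 0
        · simp [ha]
        · have : ref (α k) (α' k) w = α k w := by
            cases w with
            | nil => simp [ref, ha]
            | cons c v =>
              have hc' : α' k (c :: v) = 0 := by simpa using hc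
              simp [ref, ha, hc']
          rw [this, div_self ha, Real.log_one, mul_zero]
      · rfl
    refine hz.trans ?_
    have := S_smul n 0 (fun _ => 0) []
    simpa using this.le

/-- **(E-a)** in the form of #11125: every class has mass `≥ e^{-h}` at its activation. -/
theorem x_energy_act {K : Type*} [Fintype K] (n : ℕ) (α α' : K → Node → ℝ) (h m : ℝ)
    (hh : 0 ≤ h)
    (α0 : ∀ k v, v.length < n → 0 ≤ α k v) (α0' : ∀ k v, v.length ≤ n → 0 ≤ α' k v)
    (αsum' : ∀ v, v.length ≤ n → ∑ k, α' k v ≤ 1)
    (αm : ∀ k v, v.length < n → α k v = (α' k (true :: v) + α' k (false :: v)) / 2)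
    (hact : ∀ k v, v.length < n → (v = [] ∨ α' k v = 0) → α k v = 0 ∨ Real.exp (-h) ≤ α k v)
    (hmod : ∀ k (c : Bool) v, (c :: v).length < n → α' k (c :: v) = 0 ∨
      α k (c :: v) ≤ α' k (c :: v))
    (hm : S n (fun v => ∑ k, max (α' k v - α k v) 0) [] ≤ m) :
    S n (fun v => ∑ k, ((α' k (true :: v) - α' k (false :: v)) / 2) ^ 2 / α k v) []
      ≤ 2 * (h * (1 + m) + m) := by
  have hexp : Real.exp (-h) ≤ 1 := Real.exp_le_one_iff.mpr (by linarith)
  have hlow : ∀ k (v : Node), v.length < n → Real.exp (-h) ≤ ref (α k) (α' k) v := by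
    intro k v
    induction v with
    | nil =>
      intro hv
      simp only [ref]
      split_ifs with h1
      · exact hexp
      · exact (hact k [] hv (Or.inl rfl)).resolve_left h1
    | cons c v ih =>
      intro hv
      have hv' : v.length < n := by simp only [List.length_cons] at hv; omega
      simp only [ref]
      split_ifs with h1 h2
      · exact hexp
      · exact (hact k _ hv (Or.inr h1)).resolve_left h2
      · exact ih hv'
  refine x_energy_ref n α α' h m hh α0 α0' αsum' αm ?_ hmod hm
  intro k c v hv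
  have h1 : α' k (c :: v) ≤ 1 := by
    refine le_trans ?_ (αsum' (c :: v) (by simpa using hv))
    exact Finset.single_le_sum (f := fun k => α' k (c :: v))
      (fun k _ => α0' k _ (by simpa using hv)) (Finset.mem_univ k)
  have h2 := mul_le_mul_of_nonneg_left (hlow k v hv) (Real.exp_pos h).le
  rw [← Real.exp_add, add_neg_cancel, Real.exp_zero] at h2
  linarith

/-! ## (E-b): the value energy -/

/-- `G · D(digit ‖ 1/2)` for a node of mass `G` whose children have masses `b`, `c` -/
noncomputable def Dg (G b c : ℝ) : ℝ := (b * Real.log b + c * Real.log c) / 2 - G * Real.log G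

theorem Dg_eq_kl {G b c : ℝ} (hG : 0 < G) (hb : 0 ≤ b) (hc : 0 ≤ c) (h : G = (b + c) / 2) :
    Dg G b c = G * (b / (2 * G) * Real.log (2 * (b / (2 * G))) +
      c / (2 * G) * Real.log (2 * (c / (2 * G)))) := by
  have key : ∀ x : ℝ, 0 ≤ x → G * (x / (2 * G) * Real.log (2 * (x / (2 * G)))) =
      (x * Real.log x - x * Real.log G) / 2 := by
    intro x hx
    rcases eq_or_lt_of_le hx with h0 | h0
    · simp [← h0]
    · have e : 2 * (x / (2 * G)) = x / G := by field_simp
      rw [e, Real.log_div h0.ne' hG.ne']
      field_simp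
  rw [mul_add, key b hb, key c hc, Dg]
  have : G * Real.log G = (b * Real.log G + c * Real.log G) / 2 := by
    rw [h]; ring
  rw [this]; ring

theorem sq_le_Dg {G b c : ℝ} (hb : 0 ≤ b) (hc : 0 ≤ c) (h : G = (b + c) / 2) :
    ((b - c) / 2) ^ 2 / G ≤ 2 * Dg G b c := step_log hb hc h

theorem Dg_nonneg {G b c : ℝ} (hb : 0 ≤ b) (hc : 0 ≤ c) (h : G = (b + c) / 2) :
    0 ≤ Dg G b c := by
  have h1 := sq_le_Dg hb hc h
  have h2 : 0 ≤ ((b - c) / 2) ^ 2 / G := by
    have : 0 ≤ G := by rw [h]; linarith
    positivity
  linarith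

/-- **(E-b)**, exact chain rule with modifications. -/
theorem info_eq {Q : Type*} [Fintype Q] (n : ℕ) (G G' : Q → Node → ℝ) (v₀ : Node) :
    S n (fun v => ∑ q, Dg (G q v) (G' q (true :: v)) (G' q (false :: v))) v₀ =
      Lf n (fun v => ∑ q, G' q v * Real.log (G' q v)) v₀
        - ∑ q, G' q v₀ * Real.log (G' q v₀)
        + S n (fun v => ∑ q, (G' q v * Real.log (G' q v) - G q v * Real.log (G q v))) v₀ := by
  rw [S_tele3_eq n (Φ' := fun v => ∑ q, G' q v * Real.log (G' q v))
    (Φ := fun v => ∑ q, G q v * Real.log (G q v)) v₀]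
  · simp only [Finset.sum_sub_distrib]
  · intro w _
    simp only [Dg]
    rw [Finset.sum_sub_distrib, ← Finset.sum_div, Finset.sum_add_distrib]

/-- **(E-b)**: the value energy. -/
theorem y_energy {Q : Type*} [Fintype Q] (n : ℕ) (G G' : Q → Node → ℝ) (v₀ : Node)
    (G0' : ∀ q v, v.length ≤ n + v₀.length → 0 ≤ G' q v)
    (Gm : ∀ q v, v.length < n + v₀.length → G q v = (G' q (true :: v) + G' q (false :: v)) / 2) :
    S n (fun v => ∑ q, ((G' q (true :: v) - G' q (false :: v)) / 2) ^ 2 / G q v) v₀ ≤
      2 * (Lf n (fun v => ∑ q, G' q v * Real.log (G' q v)) v₀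
        - ∑ q, G' q v₀ * Real.log (G' q v₀)
        + S n (fun v => ∑ q, (G' q v * Real.log (G' q v) - G q v * Real.log (G q v))) v₀) := by
  rw [← info_eq, ← S_smul]
  apply S_mono
  intro w hw
  rw [Finset.mul_sum]
  apply Finset.sum_le_sum
  intro q _
  exact sq_le_Dg (G0' q _ (by simp only [List.length_cons]; omega))
    (G0' q _ (by simp only [List.length_cons]; omega)) (Gm q w hw)

/-- The loss at a removal: exit term + entropy of the cut. -/
theorem split_log {G R : ℝ} (hG : 0 ≤ G) (hR : 0 ≤ R) :
    (G + R) * Real.log (G + R) - G * Real.log G =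
      R * Real.log R + (G + R) * Real.binEntropy (R / (G + R)) := by
  rcases eq_or_lt_of_le hR with h0 | h0
  · simp [← h0]
  · have hs : 0 < G + R := by linarith
    rcases eq_or_lt_of_le hG with h1 | h1
    · have e : R / R = 1 := div_self h0.ne'
      simp [← h1, e]
    · have e : 1 - R / (G + R) = G / (G + R) := by field_simp; ring
      rw [Real.binEntropy, e, inv_div, inv_div, Real.log_div hs.ne' h0.ne',
        Real.log_div hs.ne' h1.ne']
      field_simp
      ring

/-- Concavity: the cut entropies of the values are at most the cut entropy of the total. -/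
theorem sum_binEntropy_le {Q : Type*} (s : Finset Q) (G R : Q → ℝ) (h0 : ∀ q ∈ s, 0 ≤ R q)
    (h1 : ∀ q ∈ s, R q ≤ G q) :
    ∑ q ∈ s, G q * Real.binEntropy (R q / G q) ≤
      (∑ q ∈ s, G q) * Real.binEntropy ((∑ q ∈ s, R q) / ∑ q ∈ s, G q) := by
  have hG : ∀ q ∈ s, 0 ≤ G q := fun q hq => (h0 q hq).trans (h1 q hq)
  rcases eq_or_lt_of_le (Finset.sum_nonneg hG) with h | h
  · have hz : ∀ q ∈ s, G q = 0 := (Finset.sum_eq_zero_iff_of_nonneg hG).mp h.symm
    rw [← h, zero_mul]
    apply le_of_eq
    apply Finset.sum_eq_zero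
    intro q hq
    rw [hz q hq, zero_mul]
  · set g := ∑ q ∈ s, G q with hg
    have hconc : ConcaveOn ℝ (Set.Icc (0:ℝ) 1) Real.binEntropy :=
      Real.strictConcave_binEntropy.concaveOn
    have key := hconc.le_map_sum (t := s) (w := fun q => G q / g) (p := fun q => R q / G q)
      (fun q hq => div_nonneg (hG q hq) h.le)
      (by rw [← Finset.sum_div, div_self h.ne'])
      (fun q hq => ⟨div_nonneg (h0 q hq) (hG q hq), div_le_one_of_le₀ (h1 q hq) (hG q hq)⟩)
    have e : ∑ q ∈ s, (G q / g) • (R q / G q) = (∑ q ∈ s, R q) / g := by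
      rw [Finset.sum_div]
      apply Finset.sum_congr rfl
      intro q hq
      rcases eq_or_lt_of_le (hG q hq) with h2 | h2
      · have : R q = 0 := le_antisymm (by rw [h2]; exact h1 q hq) (h0 q hq)
        simp [← h2, this]
      · simp only [smul_eq_mul]; field_simp
    rw [e] at key
    have h3 := mul_le_mul_of_nonneg_left key h.le
    refine le_trans (le_of_eq ?_) h3
    rw [Finset.mul_sum]
    apply Finset.sum_congr rfl
    intro q _
    simp only [smul_eq_mul]; field_simp

/-- **(E-b)**, exact form with exits: `R = G' - G` is the part removed at the node. -/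
theorem info_exits {Q : Type*} [Fintype Q] (n : ℕ) (G G' : Q → Node → ℝ) (v₀ : Node)
    (G0 : ∀ q v, v.length < n + v₀.length → 0 ≤ G q v)
    (Gr : ∀ q v, v.length < n + v₀.length → G q v ≤ G' q v) :
    S n (fun v => ∑ q, Dg (G q v) (G' q (true :: v)) (G' q (false :: v))) v₀ =
      Lf n (fun v => ∑ q, G' q v * Real.log (G' q v)) v₀
        - ∑ q, G' q v₀ * Real.log (G' q v₀)
        + S n (fun v => ∑ q, (G' q v - G q v) * Real.log (G' q v - G q v)) v₀
        + S n (fun v => ∑ q, G' q v * Real.binEntropy ((G' q v - G q v) / G' q v)) v₀ := by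
  rw [info_eq, add_assoc, ← S_add]
  congr 1
  apply le_antisymm
  all_goals
    apply S_mono
    intro w hw
    apply le_of_eq
    rw [← Finset.sum_add_distrib]
    apply Finset.sum_congr rfl
    intro q _
    have := split_log (G := G q w) (R := G' q w - G q w) (G0 q w hw) (by linarith [Gr q w hw])
    rw [add_sub_cancel] at this
    rw [this]

/-- **(E-b)**, crude form: density `≤ c`, removed mass `M`. -/
theorem y_energy_le {Q : Type*} [Fintype Q] (n : ℕ) (G G' : Q → Node → ℝ) (v₀ : Node) (l M g : ℝ)
    (hl : 0 ≤ l)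
    (G0 : ∀ q v, v.length < n + v₀.length → 0 ≤ G q v)
    (G0' : ∀ q v, v.length ≤ n + v₀.length → 0 ≤ G' q v)
    (Gm : ∀ q v, v.length < n + v₀.length → G q v = (G' q (true :: v) + G' q (false :: v)) / 2)
    (Gr : ∀ q v, v.length < n + v₀.length → G q v ≤ G' q v)
    (Gl : ∀ q v, v.length ≤ n + v₀.length → G' q v ≤ Real.exp l)
    (Gsum : ∀ v, v.length ≤ n + v₀.length → ∑ q, G' q v ≤ g)
    (hM : S n (fun v => ∑ q, (G' q v - G q v)) v₀ ≤ M) :
    S n (fun v => ∑ q, ((G' q (true :: v) - G' q (false :: v)) / 2) ^ 2 / G q v) v₀ ≤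
      2 * (l * g - ∑ q, G' q v₀ * Real.log (G' q v₀) + (l + 1) * M) := by
  refine (y_energy n G G' v₀ G0' Gm).trans ?_
  have h1 : Lf n (fun v => ∑ q, G' q v * Real.log (G' q v)) v₀ ≤ l * g := by
    apply Lf_le
    intro w hw
    refine le_trans ?_ (mul_le_mul_of_nonneg_left (Gsum w hw) hl)
    rw [Finset.mul_sum]
    apply Finset.sum_le_sum
    intro q _
    have := mul_log_ref_le (r := 1) (h := l) (G0' q w hw) one_pos (by simpa using Gl q w hw)
    simpa using this
  have h2 : S n (fun v => ∑ q, (G' q v * Real.log (G' q v) - G q v * Real.log (G q v))) v₀ ≤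
      (l + 1) * S n (fun v => ∑ q, (G' q v - G q v)) v₀ := by
    rw [← S_smul]
    apply S_mono
    intro w hw
    rw [Finset.mul_sum]
    apply Finset.sum_le_sum
    intro q _
    have := removal_ref (r := 1) (h := l) (G0 q w hw) (Gr q w hw) one_pos
      (by simpa using Gl q w hw.le)
    simpa using this
  have h3 : (l + 1) * S n (fun v => ∑ q, (G' q v - G q v)) v₀ ≤ (l + 1) * M :=
    mul_le_mul_of_nonneg_left hM (by linarith)
  linarith

end Vale.Agent.P091.LE.H219
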