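import Vale.Agent.P091.LE.H219.Energy
import Vale.Agent.P091.H413.EDefs

/-!
# (E-a), (E-b) in the letters of `ESys` (helper219)
-/

open Finset

namespace Vale.Agent.P091.LE.H219

open Vale.Agent.P091.H413

variable {K Q : Type} [Fintype K] [Fintype Q]

/-- **(E-a)** for `ESys`, general reference `r`. -/
theorem esys_x_energy {s : ESys K Q} {n : ℕ} (hs : s.Ok n) (r : K → Node → ℝ) (h m J : ℝ)
    (hh : 0 ≤ h) (r0 : ∀ k v, v.length < n → 0 < r k v)
    (hr : ∀ k (c : Bool) v, v.length < n → s.α' k (c :: v) ≤ Real.exp h * r k v)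
    (hlife : ∀ k (c : Bool) v, (c :: v).length < n → s.α' k (c :: v) ≠ 0 →
      r k (c :: v) = r k v)
    (hm : S n (fun v => ∑ k, max (s.α' k v - s.α k v) 0) [] ≤ m)
    (hJ : S n (fun v => ∑ k, if v = [] ∨ s.α' k v = 0 then
      s.α k v * Real.log (r k v / s.α k v) else 0) [] ≤ J) :
    S n (fun v => ∑ k, s.dα k v ^ 2 / s.α k v) [] ≤ 2 * (h * (1 + m) + m + J) := by
  refine x_energy n s.α s.α' r h m J hh hs.α0 hs.α0' hs.αsum' hs.αm r0 hr ?_ hm hJ
  intro k c v hv
  by_cases hz : s.α' k (c :: v) = 0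
  · exact Or.inl hz
  · exact Or.inr ⟨((hs.xr k _ hv).resolve_left hz).2.1, hlife k c v hv hz⟩

/-- **(E-a)** for `ESys`: the class never exceeds `e^h` times its mass at activation. -/
theorem esys_x_energy_ref {s : ESys K Q} {n : ℕ} (hs : s.Ok n) (h m : ℝ) (hh : 0 ≤ h)
    (hr : ∀ k (c : Bool) v, v.length < n →
      s.α' k (c :: v) ≤ Real.exp h * ref (s.α k) (s.α' k) v)
    (hm : S n (fun v => ∑ k, max (s.α' k v - s.α k v) 0) [] ≤ m) :
    S n (fun v => ∑ k, s.dα k v ^ 2 / s.α k v) [] ≤ 2 * (h * (1 + m) + m) := by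
  refine x_energy_ref n s.α s.α' h m hh hs.α0 hs.α0' hs.αsum' hs.αm hr ?_ hm
  intro k c v hv
  by_cases hz : s.α' k (c :: v) = 0
  · exact Or.inl hz
  · exact Or.inr ((hs.xr k _ hv).resolve_left hz).2.1

/-- **(E-a)** for `ESys`: every class has mass at least `e^{-h}` at its activation. -/
theorem esys_x_energy_act {s : ESys K Q} {n : ℕ} (hs : s.Ok n) (h m : ℝ) (hh : 0 ≤ h)
    (hact : ∀ k v, v.length < n → (v = [] ∨ s.α' k v = 0) →
      s.α k v = 0 ∨ Real.exp (-h) ≤ s.α k v)
    (hm : S n (fun v => ∑ k, max (s.α' k v - s.α k v) 0) [] ≤ m) :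
    S n (fun v => ∑ k, s.dα k v ^ 2 / s.α k v) [] ≤ 2 * (h * (1 + m) + m) := by
  refine x_energy_act n s.α s.α' h m hh hs.α0 hs.α0' hs.αsum' hs.αm hact ?_ hm
  intro k c v hv
  by_cases hz : s.α' k (c :: v) = 0
  · exact Or.inl hz
  · exact Or.inr ((hs.xr k _ hv).resolve_left hz).2.1

/-- **(E-b)** for `ESys`: the value energy is at most twice the digit information. -/
theorem esys_y_energy {s : ESys K Q} {n : ℕ} (hs : s.Ok n) :
    S n (fun v => ∑ q, s.dG q v ^ 2 / s.G q v) [] ≤
      2 * S n (fun v => ∑ q, Dg (s.G q v) (s.G' q (true :: v)) (s.G' q (false :: v))) [] := by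
  rw [← S_smul]
  apply S_mono
  intro w hw
  simp only [List.length_nil, Nat.add_zero] at hw
  rw [Finset.mul_sum]
  apply Finset.sum_le_sum
  intro q _
  exact sq_le_Dg (hs.G0' q _ (by simp only [List.length_cons]; omega))
    (hs.G0' q _ (by simp only [List.length_cons]; omega)) (hs.Gm q w hw)

/-- The digit information of `ESys`, exact: final value, root value, exits, cut entropies. -/
theorem esys_info {s : ESys K Q} {n : ℕ} (hs : s.Ok n) :
    S n (fun v => ∑ q, Dg (s.G q v) (s.G' q (true :: v)) (s.G' q (false :: v))) [] =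
      Lf n (fun v => ∑ q, s.G' q v * Real.log (s.G' q v)) []
        - ∑ q, s.G' q [] * Real.log (s.G' q [])
        + S n (fun v => ∑ q, (s.G' q v - s.G q v) * Real.log (s.G' q v - s.G q v)) []
        + S n (fun v => ∑ q, s.G' q v * Real.binEntropy ((s.G' q v - s.G q v) / s.G' q v)) [] :=
  info_exits n s.G s.G' [] (fun q v hv => hs.G0 q v (by simpa using hv))
    (fun q v hv => hs.Gr q v (by simpa using hv))

/-- crude bound: values of entropy `≤ H₀` at the root, removed mass `≤ M` -/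
theorem esys_y_energy_le {s : ESys K Q} {n : ℕ} (hs : s.Ok n) (M H₀ : ℝ)
    (hM : S n (fun v => ∑ q, (s.G' q v - s.G q v)) [] ≤ M)
    (hH : - ∑ q, s.G' q [] * Real.log (s.G' q []) ≤ H₀) :
    S n (fun v => ∑ q, s.dG q v ^ 2 / s.G q v) [] ≤
      2 * (2 * Real.log 2 + H₀ + (Real.log 2 + 1) * M) := by
  have h2 : (0:ℝ) ≤ Real.log 2 := Real.log_nonneg (by norm_num)
  have := y_energy_le n s.G s.G' [] (Real.log 2) M 2 h2
    (fun q v hv => hs.G0 q v (by simpa using hv)) (fun q v hv => hs.G0' q v (by simpa using hv))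
    (fun q v hv => hs.Gm q v (by simpa using hv)) (fun q v hv => hs.Gr q v (by simpa using hv))
    (fun q v hv => by
      rw [Real.exp_log (by norm_num)]
      have hv' : v.length ≤ n := by simpa using hv
      exact (Finset.single_le_sum (f := fun q => s.G' q v)
        (fun q _ => hs.G0' q v hv') (Finset.mem_univ q)).trans (hs.Gsum' v hv'))
    (fun v hv => hs.Gsum' v (by simpa using hv)) hM
  refine this.trans ?_
  linarith

end Vale.Agent.P091.LE.H219
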